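import Mathlib

/-! Transvection commutators in the unit group of a ring, and isolating an
entry of a matrix by three commutators. -/

namespace Vale.Agent.P183.R2.H501

variable {A : Type*} [Ring A]

/-- `1 + x` is (the value of) an element of `K`. -/
def Mem (K : Subgroup Aˣ) (x : A) : Prop := ∃ u ∈ K, (u : A) = 1 + x

theorem mem_zero (K : Subgroup Aˣ) : Mem K (0 : A) := ⟨1, K.one_mem, by simp⟩

theorem Mem.mul {K : Subgroup Aˣ} {x y : A} (hx : Mem K x) (hy : Mem K y) :
    Mem K (x + y + x * y) := by
  obtain ⟨u, hu, hux⟩ := hx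
  obtain ⟨v, hv, hvy⟩ := hy
  refine ⟨u * v, K.mul_mem hu hv, ?_⟩
  rw [Units.val_mul, hux, hvy]
  noncomm_ring

theorem Mem.add {K : Subgroup Aˣ} {x y : A} (hx : Mem K x) (hy : Mem K y) (h : x * y = 0) :
    Mem K (x + y) := by
  have := hx.mul hy
  rwa [h, add_zero] at this

theorem Mem.neg {K : Subgroup Aˣ} {x : A} (hx : Mem K x) (h : x * x = 0) : Mem K (-x) := by
  obtain ⟨u, hu, hux⟩ := hx
  refine ⟨u⁻¹, K.inv_mem hu, ?_⟩
  have h1 : (u : A) * (1 + -x) = 1 := by
    rw [hux]
    have : (1 + x) * (1 + -x) = 1 - x * x := by noncomm_ring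
    rw [this, h, sub_zero]
  have h2 := congrArg (fun z => ((u⁻¹ : Aˣ) : A) * z) h1
  simp only [← mul_assoc, Units.inv_mul, one_mul, mul_one] at h2
  exact h2.symm

/-- The commutator of `1 + x` and `1 + y` when `x * y = 0`. -/
theorem Mem.comm {K : Subgroup Aˣ} {x y : A} (hx : Mem K x) (hy : Mem K y)
    (hxx : x * x = 0) (hyy : y * y = 0) (hxy : x * y = 0) : Mem K (-(y * x)) := by
  have h1 := hx.mul hy
  rw [hxy, add_zero] at h1
  have h2 := (hx.neg hxx).mul (hy.neg hyy)
  have h3 := h1.mul h2
  have e : x + y + (-x + -y + -x * -y) + (x + y) * (-x + -y + -x * -y) = -(y * x) := by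
    have e1 : (-x) * (-y) = 0 := by rw [neg_mul_neg, hxy]
    rw [e1]
    have : x + y + (-x + -y + 0) + (x + y) * (-x + -y + 0)
        = -(x * x) - x * y - y * x - y * y := by noncomm_ring
    rw [this, hxx, hxy, hyy]
    noncomm_ring
  rwa [e] at h3

theorem Mem.comm' {K : Subgroup Aˣ} {x y : A} (hx : Mem K x) (hy : Mem K y)
    (hxx : x * x = 0) (hyy : y * y = 0) (hxy : x * y = 0) : Mem K (y * x) := by
  have h := (hx.comm hy hxx hyy hxy).neg (by
    have : -(y * x) * -(y * x) = y * (x * y) * x := by noncomm_ring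
    rw [this, hxy]; simp)
  rwa [neg_neg] at h

variable {R : Type*} [Ring R] {N : Type*} [Fintype N] [DecidableEq N]

open Matrix

/-- Isolating one entry: `M` of square zero with two equal columns `b`, `b'`. -/
theorem isolate {K : Subgroup (Matrix N N R)ˣ} {M : Matrix N N R} (hM : Mem K M)
    (hMM : M * M = 0) {b b' c d d' f : N} {s t w : R}
    (hcol : ∀ i, M i b * s = M i b' * s)
    (hbb : b ≠ b') (hcb : c ≠ b) (hcb' : c ≠ b')
    (hd'b : d' ≠ b) (hd'b' : d' ≠ b') (hdd' : d ≠ d')
    (hfb : f ≠ b) (hfb' : f ≠ b') (hfd' : f ≠ d')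
    (h1 : Mem K (Matrix.single b c s : Matrix N N R))
    (h2 : Mem K (Matrix.single b' c s : Matrix N N R))
    (h3 : Mem K (Matrix.single d d' t : Matrix N N R))
    (h4 : Mem K (Matrix.single f b w : Matrix N N R)) :
    Mem K (Matrix.single f d' (w * (s * M c d * t)) : Matrix N N R) := by
  set F : Matrix N N R := Matrix.single b c s - Matrix.single b' c s with hF
  have hFmem : Mem K F := by
    rw [hF, sub_eq_add_neg]
    refine h1.add (h2.neg ?_) ?_
    · rw [Matrix.single_mul_single_of_ne _ _ _ _ hcb']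
    · rw [mul_neg, Matrix.single_mul_single_of_ne _ _ _ _ hcb', neg_zero]
  have hFF : F * F = 0 := by
    rw [hF]
    simp only [sub_mul, mul_sub]
    rw [Matrix.single_mul_single_of_ne _ _ _ _ hcb, Matrix.single_mul_single_of_ne _ _ _ _ hcb',
      Matrix.single_mul_single_of_ne _ _ _ _ hcb, Matrix.single_mul_single_of_ne _ _ _ _ hcb']
    simp
  have hMF : M * F = 0 := by
    rw [hF, mul_sub]
    ext i j
    simp only [Matrix.sub_apply, Matrix.zero_apply]
    by_cases hj : j = c
    · subst hj
      rw [Matrix.mul_single_apply_same, Matrix.mul_single_apply_same, hcol, sub_self]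
    · rw [Matrix.mul_single_apply_of_ne _ _ _ _ _ hj, Matrix.mul_single_apply_of_ne _ _ _ _ _ hj,
        sub_zero]
  have hN : Mem K (F * M) := hM.comm' hFmem hMM hFF hMF
  have hNN : (F * M) * (F * M) = 0 := by
    have : (F * M) * (F * M) = F * (M * F) * M := by noncomm_ring
    rw [this, hMF]; simp
  have hrow : ∀ i, i ≠ b → i ≠ b' → ∀ j, (F * M) i j = 0 := by
    intro i hib hib' j
    rw [hF, sub_mul, Matrix.sub_apply, Matrix.single_mul_apply_of_ne _ _ _ _ _ hib,
      Matrix.single_mul_apply_of_ne _ _ _ _ _ hib', sub_zero]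
  have hb : ∀ j, (F * M) b j = s * M c j := by
    intro j
    rw [hF, sub_mul, Matrix.sub_apply, Matrix.single_mul_apply_same,
      Matrix.single_mul_apply_of_ne _ _ _ _ _ hbb, sub_zero]
  -- second commutator
  have hSS : (Matrix.single d d' t : Matrix N N R) * Matrix.single d d' t = 0 := by
    rw [Matrix.single_mul_single_of_ne _ _ _ _ hdd'.symm]
  have hSN : (Matrix.single d d' t : Matrix N N R) * (F * M) = 0 := by
    ext i j
    by_cases hi : i = d
    · subst hi
      rw [Matrix.single_mul_apply_same, hrow d' hd'b hd'b', mul_zero, Matrix.zero_apply]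
    · rw [Matrix.single_mul_apply_of_ne _ _ _ _ _ hi, Matrix.zero_apply]
  have hP : Mem K ((F * M) * Matrix.single d d' t) := h3.comm' hN hSS hNN hSN
  have hPP : ((F * M) * Matrix.single d d' t) * ((F * M) * Matrix.single d d' t) = 0 := by
    have : ((F * M) * Matrix.single d d' t) * ((F * M) * Matrix.single d d' t)
        = (F * M) * (Matrix.single d d' t * (F * M)) * Matrix.single d d' t := by noncomm_ring
    rw [this, hSN]; simp
  -- third commutator
  have hTT : (Matrix.single f b w : Matrix N N R) * Matrix.single f b w = 0 := by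
    rw [Matrix.single_mul_single_of_ne _ _ _ _ hfb.symm]
  have hPT : ((F * M) * Matrix.single d d' t) * Matrix.single f b w = 0 := by
    rw [mul_assoc, Matrix.single_mul_single_of_ne _ _ _ _ hfd'.symm, mul_zero]
  have hQ : Mem K (Matrix.single f b w * ((F * M) * Matrix.single d d' t)) :=
    hP.comm' h4 hPP hTT hPT
  have hfin : Matrix.single f b w * ((F * M) * Matrix.single d d' t)
      = Matrix.single f d' (w * (s * M c d * t)) := by
    ext i j
    by_cases hi : i = f
    · subst hi
      rw [Matrix.single_mul_apply_same]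
      by_cases hj : j = d'
      · subst hj
        rw [Matrix.mul_single_apply_same, hb, Matrix.single_apply_same]
      · rw [Matrix.mul_single_apply_of_ne _ _ _ _ _ hj, mul_zero]
        rw [Matrix.single_apply_of_ne]
        intro h; exact hj h.2.symm
    · rw [Matrix.single_mul_apply_of_ne _ _ _ _ _ hi, Matrix.single_apply_of_ne]
      intro h; exact hi h.1.symm
  rwa [hfin] at hQ

end Vale.Agent.P183.R2.H501
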