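import Vale.Agent.P183.R2.H577.Base
import Vale.Agent.P183.R2.H501.Comm

/-! P183, step two: pigeonhole and three commutators. -/

namespace Vale.Agent.P183.H577

open Matrix Vale.Agent.P183.R2.H501

variable {R : Type} [Ring R] [Finite R] {n : ℕ}

/-- elementary matrices inside a block are in the block diagonal group -/
theorem in_bl_single {ι : Type} [Fintype ι] [DecidableEq ι] (e : Fin n → R)
    (p : ι → Fin n) {a b : ι} (hab : a ≠ b) (hp : p a = p b) {r : R}
    (hr : e (p a) * r = r) (hr' : r * e (p a) = r) :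
    Mem (bl e p) (Matrix.single a b r : Matrix ι ι R) := by
  have h0 : (Matrix.single a b r : Matrix ι ι R) * Matrix.single a b r = 0 := by
    rw [Matrix.single_mul_single_of_ne _ _ _ _ hab.symm]
  have h1 : (1 + Matrix.single a b r : Matrix ι ι R) * (1 - Matrix.single a b r) = 1 := by
    have : (1 + Matrix.single a b r : Matrix ι ι R) * (1 - Matrix.single a b r)
        = 1 - Matrix.single a b r * Matrix.single a b r := by noncomm_ring
    rw [this, h0, sub_zero]
  have h2 : (1 - Matrix.single a b r : Matrix ι ι R) * (1 + Matrix.single a b r) = 1 := by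
    have : (1 - Matrix.single a b r : Matrix ι ι R) * (1 + Matrix.single a b r)
        = 1 - Matrix.single a b r * Matrix.single a b r := by noncomm_ring
    rw [this, h0, sub_zero]
  refine ⟨⟨1 + Matrix.single a b r, 1 - Matrix.single a b r, h1, h2⟩, ?_, rfl⟩
  show Blk e p ((1 + Matrix.single a b r : Matrix ι ι R) - 1)
  rw [add_sub_cancel_left]
  refine ⟨fun x y => ⟨Subring.mem_top _, ?_, ?_⟩, ?_⟩
  · by_cases h : a = x ∧ b = y
    · obtain ⟨rfl, rfl⟩ := h
      rw [Matrix.single_apply_same, hr]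
    · rw [Matrix.single_apply_of_ne _ _ _ _ _ h, mul_zero]
  · by_cases h : a = x ∧ b = y
    · obtain ⟨rfl, rfl⟩ := h
      rw [Matrix.single_apply_same, ← hp, hr']
    · rw [Matrix.single_apply_of_ne _ _ _ _ _ h, zero_mul]
  · intro x y hxy
    rw [Matrix.single_apply_of_ne]
    rintro ⟨rfl, rfl⟩
    exact hxy hp

theorem Mem.mono' {A : Type*} [Ring A] {K K' : Subgroup Aˣ} (h : K ≤ K') {x : A}
    (hx : Mem K x) : Mem K' x := by
  obtain ⟨u, hu, hux⟩ := hx
  exact ⟨u, h hu, hux⟩

theorem ent_single {ι : Type} [DecidableEq ι] (e : Fin n → R)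
    (p : ι → Fin n) {a b : ι} (hp : p a = p b) {r : R}
    (hr : e (p a) * r = r) (hr' : r * e (p a) = r) :
    Ent e ⊤ p (Matrix.single a b r : Matrix ι ι R) := by
  refine fun x y => ⟨Subring.mem_top _, ?_, ?_⟩
  · by_cases h : a = x ∧ b = y
    · obtain ⟨rfl, rfl⟩ := h
      rw [Matrix.single_apply_same, hr]
    · rw [Matrix.single_apply_of_ne _ _ _ _ _ h, mul_zero]
  · by_cases h : a = x ∧ b = y
    · obtain ⟨rfl, rfl⟩ := h
      rw [Matrix.single_apply_same, ← hp, hr']
    · rw [Matrix.single_apply_of_ne _ _ _ _ _ h, zero_mul]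

/-- ROW 2 (three commutators + pigeonhole). -/
theorem step_two {ι : Type} [Fintype ι] [DecidableEq ι] (e : Fin n → R)
    (he : ∀ i, e i * e i = e i) (ho : ∀ i j, i ≠ j → e i * e j = 0)
    (p : ι → Fin n) (hc : ∀ i, Nat.card R + 2 ≤ Fintype.card {a // p a = i})
    (K : Subgroup (Matrix ι ι R)ˣ) (hK : bl e p ≤ K) (hK' : K ≤ gl e ⊤ p)
    (g : (Matrix ι ι R)ˣ) (hg : g ∈ K) (a a' : ι) (ha : a ≠ a') (hpa : p a = p a') (r : R)
    (hr : e (p a) * r = r) (hr' : r * e (p a) = r) (c d : ι) (hcd : p c ≠ p d) :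
    In K (Matrix.single c d ((g⁻¹.1 * Matrix.single a a' r * g.1) c d)) := by
  classical
  have := Fintype.ofFinite R
  -- the conjugate
  set E : Matrix ι ι R := Matrix.single a a' r with hE
  have hEE : E * E = 0 := by
    rw [hE, Matrix.single_mul_single_of_ne _ _ _ _ ha.symm]
  set M : Matrix ι ι R := g⁻¹.1 * E * g.1 with hM
  have hgg : g.1 * g⁻¹.1 = 1 := g.mul_inv
  have hMM : M * M = 0 := by
    rw [hM]
    have : g⁻¹.1 * E * g.1 * (g⁻¹.1 * E * g.1) = g⁻¹.1 * (E * (g.1 * g⁻¹.1) * E) * g.1 := by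
      noncomm_ring
    rw [this, hgg, mul_one, hEE]
    simp
  have hMem : Mem K M := by
    obtain ⟨u, hu, hux⟩ := Mem.mono' hK (in_bl_single e p ha hpa hr hr')
    refine ⟨g⁻¹ * u * g, K.mul_mem (K.mul_mem (K.inv_mem hg) hu) hg, ?_⟩
    rw [Units.val_mul, Units.val_mul, hux]
    have h3 : g⁻¹.1 * (1 + Matrix.single a a' r) * g.1
        = g⁻¹.1 * g.1 + g⁻¹.1 * Matrix.single a a' r * g.1 := by noncomm_ring
    have h4 : g⁻¹.1 * g.1 = 1 := g.inv_mul
    show g⁻¹.1 * (1 + Matrix.single a a' r) * g.1 = 1 + M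
    rw [h3, h4]
  -- entries of M in the Peirce components
  have hEnt : Ent e ⊤ p M := by
    have hX : Ent e ⊤ p (g⁻¹.1 - 1) := hK' (K.inv_mem hg)
    have hY : Ent e ⊤ p (g.1 - 1) := hK' hg
    have hEe : Ent e ⊤ p E := ent_single e p hpa hr hr'
    have : M = E + (g⁻¹.1 - 1) * E + E * (g.1 - 1) + (g⁻¹.1 - 1) * E * (g.1 - 1) := by
      rw [hM]; noncomm_ring
    rw [this]
    exact ((hEe.add (hX.mul hEe)).add (hEe.mul hY)).add ((hX.mul hEe).mul hY)
  -- pigeonhole in the block of c
  obtain ⟨b, b', hbb, hpb, hpb', hcb, hcb', hgb⟩ : ∃ b b', b ≠ b' ∧ p b = p c ∧ p b' = p c ∧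
      c ≠ b ∧ c ≠ b' ∧ g.1 a' b = g.1 a' b' := by
    let s : Finset ι := (Finset.univ.filter fun x => p x = p c).erase c
    have hs : (Finset.univ : Finset R).card < s.card := by
      have h1 : (Finset.univ.filter fun x => p x = p c).card
          = Fintype.card {x // p x = p c} := by
        rw [Fintype.card_subtype]
      have h2 := hc (p c)
      have h3 : s.card = (Finset.univ.filter fun x => p x = p c).card - 1 :=
        Finset.card_erase_of_mem (by simp)
      have h4 : (Finset.univ : Finset R).card = Nat.card R := by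
        rw [Finset.card_univ, Nat.card_eq_fintype_card]
      omega
    obtain ⟨b, hb, b', hb', hne, heq⟩ := Finset.exists_ne_map_eq_of_card_lt_of_maps_to hs
      (f := fun x => g.1 a' x) (fun x _ => Finset.mem_univ _)
    simp only [s, Finset.mem_erase, Finset.mem_filter, Finset.mem_univ, true_and] at hb hb'
    exact ⟨b, b', hne, hb.2, hb'.2, fun h => hb.1 h.symm, fun h => hb'.1 h.symm, heq⟩
  obtain ⟨d', hdd', hpd'⟩ : ∃ d', d' ≠ d ∧ p d' = p d := by
    have h1 : 1 < Fintype.card {x // p x = p d} := by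
      have := hc (p d)
      omega
    obtain ⟨x, hx⟩ := Fintype.exists_ne_of_one_lt_card h1 ⟨d, rfl⟩
    exact ⟨x.1, fun h => hx (Subtype.ext h), x.2⟩
  have hcol : ∀ i, M i b = M i b' := by
    intro i
    have h1 : M = g⁻¹.1 * (E * g.1) := by rw [hM, mul_assoc]
    rw [h1, Matrix.mul_apply, Matrix.mul_apply]
    refine Finset.sum_congr rfl fun j _ => ?_
    congr 1
    by_cases hj : j = a
    · subst hj
      rw [hE, Matrix.single_mul_apply_same, Matrix.single_mul_apply_same, hgb]
    · rw [hE, Matrix.single_mul_apply_of_ne _ _ _ _ _ hj,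
        Matrix.single_mul_apply_of_ne _ _ _ _ _ hj]
  have hmem : ∀ {x y : ι}, x ≠ y → p x = p y →
      Mem K (Matrix.single x y (e (p x)) : Matrix ι ι R) := fun {x y} hxy hp =>
    Mem.mono' hK (in_bl_single e p hxy hp (he _) (he _))
  have hd'b : d' ≠ b := fun h => hcd (by rw [← hpb, ← h, hpd'])
  have hd'b' : d' ≠ b' := fun h => hcd (by rw [← hpb', ← h, hpd'])
  have hcd' : c ≠ d' := fun h => hcd (by rw [h, hpd'])
  have hcdne : c ≠ d := fun h => hcd (by rw [h])
  have key := isolate (K := K) hMem hMM (b := b) (b' := b') (c := c) (d := d) (d' := d') (f := c)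
    (s := e (p c)) (t := e (p d)) (w := e (p c)) (fun i => by rw [hcol i]) hbb hcb hcb'
    hd'b hd'b' hdd'.symm hcb hcb' hcd'
    (by have := hmem hcb.symm hpb; rwa [hpb] at this)
    (by have := hmem hcb'.symm hpb'; rwa [hpb'] at this)
    (hmem hdd'.symm hpd'.symm) (hmem hcb hpb.symm)
  have hval : e (p c) * (e (p c) * M c d * e (p d)) = M c d := by
    rw [(hEnt c d).2.1, (hEnt c d).2.2, (hEnt c d).2.1]
  rw [hval] at key
  -- move the column from d' to d
  have hmv : Mem K (Matrix.single d' d (e (p d)) : Matrix ι ι R) := by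
    have := hmem hdd' hpd'
    rwa [hpd'] at this
  have hfin := hmv.comm' key
    (by rw [Matrix.single_mul_single_of_ne _ _ _ _ hdd'.symm])
    (by rw [Matrix.single_mul_single_of_ne _ _ _ _ hcd'.symm])
    (by rw [Matrix.single_mul_single_of_ne _ _ _ _ hcdne.symm])
  rw [Matrix.single_mul_single_same, (hEnt c d).2.2] at hfin
  exact hfin

end Vale.Agent.P183.H577
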